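import Vale.Agent.P254.Main

open Set

namespace Vale.Agent.Results.P254.FewVertices

open Vale.Agent.P254

/-- The strong isotropic constant conjecture holds for all polytopes with at most `n + 2` vertices,
in every dimension `n`: if `K` is the convex hull of `n + 2` points of `ℝⁿ` (repetitions allowed) and
has nonempty interior and `S` is any `n`-simplex, then `L_K ≤ L_S`, and equality forces `K` to be a
simplex. Here `isoConstant K = (det Σ_K / |K|²)^(1/(2n))`. -/
theorem result {n : ℕ} (hn : 1 ≤ n) (p : Fin (n + 2) → Fin n → ℝ)
    (hK : (interior (convexHull ℝ (range p))).Nonempty)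
    (q : Fin (n + 1) → Fin n → ℝ) (hq : AffineIndependent ℝ q) :
    isoConstant (convexHull ℝ (range p)) ≤ isoConstant (convexHull ℝ (range q)) ∧
      (isoConstant (convexHull ℝ (range p)) = isoConstant (convexHull ℝ (range q)) →
        ∃ q' : Fin (n + 1) → Fin n → ℝ, AffineIndependent ℝ q' ∧
          convexHull ℝ (range p) = convexHull ℝ (range q')) := by
  have hKp : IsCompact (convexHull ℝ (range p)) := (finite_range p).isCompact_convexHull ℝ
  have hvolp : 0 < vol (convexHull ℝ (range p)) := vol_pos_of_interior hKp hK
  have hpos := fval_pos_of_convexHull hvolp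
  obtain ⟨h1, h2⟩ := fval_main p hK q hq
  have hexp : 0 < (1 : ℝ) / (2 * (n : ℝ)) := by
    have : (1 : ℝ) ≤ n := by exact_mod_cast hn
    positivity
  constructor
  · exact Real.rpow_le_rpow hpos.le h1 hexp.le
  · intro h
    by_contra hne
    have hlt : fval (convexHull ℝ (range p)) < fval (convexHull ℝ (range q)) :=
      lt_of_le_of_ne h1 fun he => hne (h2 he)
    have := Real.rpow_lt_rpow hpos.le hlt hexp
    exact absurd h this.ne

end Vale.Agent.Results.P254.FewVertices
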